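import Mathlib
import Vale.Agent.Lib.P205.General
import Vale.Agent.Lib.P205.Linear

/-!
# Every smooth Riemannian metric on the torus is induced by a smooth immersion into `ℝ⁴`

The torus is `ℝ² / ℤ²`; a smooth Riemannian metric on it is a smooth field `g` of positive definite
symmetric bilinear forms on `ℝ²` which is invariant under the translations by `(1, 0)` and `(0, 1)`.
There is a smooth map `F : ℝ² → ℝ⁴`, invariant under the same translations, with
`⟨dF_x a, dF_x b⟩ = g_x(a, b)`.  No uniformization theorem is assumed: the isothermal coordinates of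
the universal cover and their global structure are constructed inside the proof.

Proof: (1) isothermal coordinates: an elliptic equation in divergence form is solved in `ℓ²(ℤ²)`
(coercivity) and the solution is shown to be rapidly decreasing, which gives a conformal factor and a
developing map `Z : ℝ² → ℂ` of a flat metric conformal to `g`; `Z` is a diffeomorphism.
(2) `F = e^W Ψ(Z')` with `Ψ : ℝ² → S³(√ε) ⊂ ℝ⁴` a flat Hopf torus and `Z'` a developing map of the
metric `e^{-2u} |dx|² - ε dW²`, which is flat for a solution `u` of a scalar elliptic equation; the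
periods are matched by the choice of `ε` and of a closed curve of prescribed length and holonomy.
-/

namespace Vale.Agent.Results.P205.AllTori

open scoped ContDiff

theorem result (g : ℝ × ℝ → ℝ × ℝ →L[ℝ] ℝ × ℝ →L[ℝ] ℝ) (hg : ContDiff ℝ ∞ g)
    (hsymm : ∀ x a b, g x a b = g x b a) (hpos : ∀ x a, a ≠ 0 → 0 < g x a a)
    (h₁ : ∀ x, g (x + (1, 0)) = g x) (h₂ : ∀ x, g (x + (0, 1)) = g x) :
    ∃ F : ℝ × ℝ → EuclideanSpace ℝ (Fin 4), ContDiff ℝ ∞ F ∧
      (∀ x, F (x + (1, 0)) = F x) ∧ (∀ x, F (x + (0, 1)) = F x) ∧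
      ∀ x a b : ℝ × ℝ, inner ℝ (fderiv ℝ F x a) (fderiv ℝ F x b) = g x a b := by
  obtain ⟨F, hF, hper, hmet⟩ := Vale.Agent.P205.torus_general_of
    (fun _ _ _ _ _ ha hb hc hf₁ hf₂ pa pb pc pf₁ pf₂ hp hd =>
      Vale.Agent.P205.lin_solve ha hb hc hf₁ hf₂ pa pb pc pf₁ pf₂ hp hd) g hg hsymm hpos ⟨h₁, h₂⟩
  exact ⟨F, hF, hper.1, hper.2, hmet⟩

end Vale.Agent.Results.P205.AllTori
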