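import Mathlib
import Vale.Agent.Lib.P205.Final

/-!
# Every Riemannian torus has a smooth isometric immersion into `ℝ⁴`

The torus is `ℝ² / Λ`, `Λ` the lattice generated by two linearly independent vectors `v₁`, `v₂`, with
the metric `e^{2w} (dx₁² + dx₂²)`, `w` an arbitrary smooth `Λ`-periodic function.  By the
uniformization theorem every smooth Riemannian 2-torus is of this form, up to isometry.

Proof: `F = e^W Ψ(Z)` with `W = w + u`, where `Ψ : ℝ² → S³(√ε) ⊂ ℝ⁴` is a flat Hopf torus and `Z` is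
a developing map of the metric `e^{-2u} |dx|² - ε dW²`, which is flat for a solution `u` of a scalar
elliptic equation; the equation is solved in the Wiener algebra for small `ε`, and the periods are
matched by the choice of `ε` and of a closed curve with prescribed length and holonomy.
-/

namespace Vale.Agent.Results.P205.Tori

open scoped ContDiff

theorem result (v₁ v₂ : ℝ × ℝ) (hv : v₁.1 * v₂.2 - v₁.2 * v₂.1 ≠ 0)
    (w : ℝ × ℝ → ℝ) (hw : ContDiff ℝ ∞ w)
    (hw₁ : ∀ x, w (x + v₁) = w x) (hw₂ : ∀ x, w (x + v₂) = w x) :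
    ∃ F : ℝ × ℝ → EuclideanSpace ℝ (Fin 4),
      ContDiff ℝ ∞ F ∧ (∀ x, F (x + v₁) = F x) ∧ (∀ x, F (x + v₂) = F x) ∧
      ∀ x a b : ℝ × ℝ, inner ℝ (fderiv ℝ F x a) (fderiv ℝ F x b) =
        Real.exp (2 * w x) * (a.1 * b.1 + a.2 * b.2) := by
  obtain ⟨F, hF, hper, hmet⟩ := Vale.Agent.P205.torus (v₁ := v₁) (v₂ := v₂) hv w hw ⟨hw₁, hw₂⟩
  exact ⟨F, hF, hper.1, hper.2, hmet⟩

end Vale.Agent.Results.P205.Tori
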